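import Mathlib

/-!
# Growth of the radial modes of harmonic functions on rotationally symmetric manifolds

On `ℝ^n` with the metric `dr^2 + f(r)^2 g_S` a function `a(r) Y(θ)`, `Y` a spherical harmonic of
degree `j`, is harmonic iff `a'' + (n-1) (f'/f) a' - j (j+n-2) a / f^2 = 0`.  If `f'' ≤ 0`
(nonnegative Ricci curvature), `f 0 = 0`, `f' 0 = 1`, then for every solution which is bounded
near `0` the function `a(r)^2 / r^(2j)` is nondecreasing.  Here `n = m + 3`.
-/

namespace Vale.Agent.H60.Radial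

open Set

section core

variable {m j : ℕ} {f f' a a' a'' : ℝ → ℝ} {B : ℝ}

/-- the hypotheses on the profile and the mode, in derivative-function form -/
structure Mode (m j : ℕ) (f f' a a' a'' : ℝ → ℝ) (B : ℝ) : Prop where
  hf : ∀ r, 0 < r → HasDerivAt f (f' r) r
  hfpos : ∀ r, 0 < r → 0 < f r
  hfle : ∀ r, 0 < r → f r ≤ r
  hf'le : ∀ r, 0 < r → r * f' r ≤ f r
  ha : ∀ r, 0 < r → HasDerivAt a (a' r) r
  ha' : ∀ r, 0 < r → HasDerivAt a' (a'' r) r
  hode : ∀ r, 0 < r → a'' r + ((m:ℝ) + 2) * (f' r / f r) * a' r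
    - (j:ℝ) * (j + m + 1) * a r / (f r) ^ 2 = 0
  hbdd : ∀ r, 0 < r → r ≤ 1 → |a r| ≤ B

theorem Mode.neg (h : Mode m j f f' a a' a'' B) :
    Mode m j f f' (fun r => -a r) (fun r => -a' r) (fun r => -a'' r) B where
  hf := h.hf
  hfpos := h.hfpos
  hfle := h.hfle
  hf'le := h.hf'le
  ha := fun r hr => (h.ha r hr).neg
  ha' := fun r hr => (h.ha' r hr).neg
  hode := fun r hr => by
    have := h.hode r hr
    linear_combination -this
  hbdd := fun r hr hr1 => by
    rw [abs_neg]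
    exact h.hbdd r hr hr1

theorem Mode.B_nonneg (h : Mode m j f f' a a' a'' B) : 0 ≤ B :=
  (abs_nonneg _).trans (h.hbdd 1 one_pos le_rfl)

theorem Mode.pow_deriv (h : Mode m j f f' a a' a'' B) {r : ℝ} (hr : 0 < r) :
    HasDerivAt (fun r => f r ^ (m + 2)) (((m:ℝ) + 2) * f r ^ (m + 1) * f' r) r := by
  have h0 : HasDerivAt (fun r => f r ^ (m + 2))
      (((m + 2 : ℕ) : ℝ) * f r ^ (m + 2 - 1) * f' r) r := (h.hf r hr).pow (m + 2)
  refine h0.congr_deriv ?_
  have : m + 2 - 1 = m + 1 := rfl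
  rw [this]
  push_cast
  ring

/-- the flux `f^(m+2) a'` has derivative `μ f^m a` -/
theorem Mode.flux_deriv (h : Mode m j f f' a a' a'' B) {r : ℝ} (hr : 0 < r) :
    HasDerivAt (fun r => f r ^ (m + 2) * a' r) ((j:ℝ) * (j + m + 1) * f r ^ m * a r) r := by
  have h1 : HasDerivAt (fun r => f r ^ (m + 2) * a' r)
      (((m:ℝ) + 2) * f r ^ (m + 1) * f' r * a' r + f r ^ (m + 2) * a'' r) r :=
    (h.pow_deriv hr).mul (h.ha' r hr)
  have hfp := h.hfpos r hr
  have hode := h.hode r hr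
  refine h1.congr_deriv ?_
  have e : a'' r = (j:ℝ) * (j + m + 1) * a r / (f r) ^ 2 - ((m:ℝ) + 2) * (f' r / f r) * a' r := by
    linarith
  rw [e]
  field_simp
  ring

theorem Mode.flux_le (h : Mode m j f f' a a' a'' B) {r₁ : ℝ} (hr₁ : 0 < r₁) (hr₁' : r₁ ≤ 1) :
    f r₁ ^ (m + 2) * a' r₁ ≤ (j:ℝ) * (j + m + 1) * B * r₁ := by
  by_contra hcon
  push Not at hcon
  have hB := h.B_nonneg
  set μ : ℝ := (j:ℝ) * (j + m + 1) with hμ
  have hμ0 : 0 ≤ μ := by positivity
  set F : ℝ → ℝ := fun r => f r ^ (m + 2) * a' r with hF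
  set ε : ℝ := F r₁ - μ * B * r₁ with hε
  have hεpos : 0 < ε := by rw [hε]; linarith
  -- F ≥ ε on (0, r₁]
  have hFlow : ∀ s, 0 < s → s ≤ r₁ → ε ≤ F s := by
    intro s hs hsr
    have hderiv : ∀ x ∈ Icc s r₁, HasDerivWithinAt F (μ * f x ^ m * a x) (Icc s r₁) x :=
      fun x hx => (h.flux_deriv (lt_of_lt_of_le hs hx.1)).hasDerivWithinAt
    have hbound : ∀ x ∈ Icc s r₁, ‖μ * f x ^ m * a x‖ ≤ μ * B := by
      intro x hx
      have hx0 : 0 < x := lt_of_lt_of_le hs hx.1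
      have hx1 : x ≤ 1 := hx.2.trans hr₁'
      have h1 : f x ^ m ≤ 1 := pow_le_one₀ (h.hfpos x hx0).le ((h.hfle x hx0).trans hx1)
      have h2 : 0 ≤ f x ^ m := pow_nonneg (h.hfpos x hx0).le m
      rw [Real.norm_eq_abs, abs_mul, abs_mul, abs_of_nonneg hμ0, abs_of_nonneg h2]
      have h3 := h.hbdd x hx0 hx1
      calc μ * f x ^ m * |a x| ≤ μ * 1 * B := by
            apply mul_le_mul (mul_le_mul_of_nonneg_left h1 hμ0) h3 (abs_nonneg _)
            positivity
        _ = μ * B := by ring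
    have key := (convex_Icc s r₁).norm_image_sub_le_of_norm_hasDerivWithin_le hderiv hbound
      (left_mem_Icc.mpr hsr) (right_mem_Icc.mpr hsr)
    rw [Real.norm_eq_abs, Real.norm_eq_abs, abs_of_nonneg (by linarith : 0 ≤ r₁ - s)] at key
    have := (abs_le.mp key).2
    have h4 : μ * B * (r₁ - s) ≤ μ * B * r₁ := by
      apply mul_le_mul_of_nonneg_left _ (by positivity)
      linarith
    rw [hε]
    linarith
  -- a' ≥ ε / s^2 on (0, r₁]
  have ha'low : ∀ s, 0 < s → s ≤ r₁ → ε / s ^ 2 ≤ a' s := by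
    intro s hs hsr
    have h1 := hFlow s hs hsr
    have hfs := h.hfpos s hs
    have hs1 : s ≤ 1 := hsr.trans hr₁'
    have h2 : f s ^ (m + 2) ≤ s ^ 2 := by
      calc f s ^ (m + 2) ≤ s ^ (m + 2) := pow_le_pow_left₀ hfs.le (h.hfle s hs) _
        _ ≤ s ^ 2 := pow_le_pow_of_le_one hs.le hs1 (by omega)
    have h3 : 0 < a' s := by
      by_contra hc
      push Not at hc
      have : F s ≤ 0 := mul_nonpos_of_nonneg_of_nonpos (pow_nonneg hfs.le _) hc
      linarith
    rw [div_le_iff₀ (by positivity)]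
    calc ε ≤ f s ^ (m + 2) * a' s := h1
      _ ≤ s ^ 2 * a' s := mul_le_mul_of_nonneg_right h2 h3.le
      _ = a' s * s ^ 2 := by ring
  -- a + ε / s is monotone on (0, r₁]
  have hmono : MonotoneOn (fun s => a s + ε / s) (Ioc 0 r₁) := by
    have hd : ∀ s, 0 < s → HasDerivAt (fun s => a s + ε / s) (a' s - ε / s ^ 2) s := by
      intro s hs
      have h0 : HasDerivAt (fun s : ℝ => ε * s⁻¹) (ε * -(s ^ 2)⁻¹) s :=
        (hasDerivAt_inv hs.ne').const_mul ε
      have h1 : HasDerivAt (fun s : ℝ => ε / s) (ε * -(s ^ 2)⁻¹) s := by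
        have e : (fun s : ℝ => ε / s) = fun s : ℝ => ε * s⁻¹ := by
          funext x; rw [div_eq_mul_inv]
        rw [e]; exact h0
      have h2 : HasDerivAt (fun s => a s + ε / s) (a' s + ε * -(s ^ 2)⁻¹) s :=
        (h.ha s hs).add h1
      refine h2.congr_deriv ?_
      rw [div_eq_mul_inv]
      ring
    apply monotoneOn_of_deriv_nonneg (convex_Ioc 0 r₁)
    · intro s hs
      exact (hd s hs.1).continuousAt.continuousWithinAt
    · intro s hs
      rw [interior_Ioc] at hs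
      exact (hd s hs.1).differentiableAt.differentiableWithinAt
    · intro s hs
      rw [interior_Ioc] at hs
      rw [(hd s hs.1).deriv]
      linarith [ha'low s hs.1 hs.2.le]
  -- contradiction for small s
  set s₀ : ℝ := ε / (2 * B + ε / r₁ + 1) with hs₀
  have hden : 0 < 2 * B + ε / r₁ + 1 := by positivity
  have hs₀pos : 0 < s₀ := div_pos hεpos hden
  have hs₀le : s₀ ≤ r₁ := by
    rw [hs₀, div_le_iff₀ hden]
    have : (2 * B + ε / r₁ + 1) * r₁ = r₁ * (2 * B + 1) + ε := by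
      field_simp
      ring
    rw [mul_comm, this]
    nlinarith
  have h5 := hmono ⟨hs₀pos, hs₀le⟩ ⟨hr₁, le_rfl⟩ hs₀le
  simp only at h5
  have h6 : ε / s₀ = 2 * B + ε / r₁ + 1 := by
    rw [hs₀]
    field_simp
  have h7 := h.hbdd s₀ hs₀pos (hs₀le.trans hr₁')
  have h8 := h.hbdd r₁ hr₁ hr₁'
  have := (abs_le.mp h7).1
  have := (abs_le.mp h8).2
  linarith

theorem Mode.flux_abs_le (h : Mode m j f f' a a' a'' B) {r : ℝ} (hr : 0 < r) (hr' : r ≤ 1) :
    |f r ^ (m + 2) * a' r| ≤ (j:ℝ) * (j + m + 1) * B * r := by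
  rw [abs_le]
  constructor
  · have := h.neg.flux_le hr hr'
    linarith
  · exact h.flux_le hr hr'

/-- the monotone quantity -/
noncomputable def Psi (m j : ℕ) (f a a' : ℝ → ℝ) (r : ℝ) : ℝ :=
  f r ^ (m + 2) * (r * a' r - j * a r) * a r / r

theorem Mode.psi_deriv (h : Mode m j f f' a a' a'' B) {r : ℝ} (hr : 0 < r) :
    HasDerivAt (Psi m j f a a')
      (f r ^ (m + 2) * (a' r - j * a r / r) ^ 2 + f r ^ m * a r ^ 2 *
        ((j:ℝ) * (j + m + 1) - j * (j - 1) * (f r / r) ^ 2 - (m + 2) * j * (f r / r) * f' r)) r := by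
  have h1 : HasDerivAt (fun r => r * a' r - j * a r) (1 * a' r + r * a'' r - j * a' r) r :=
    ((hasDerivAt_id r).mul (h.ha' r hr)).sub ((h.ha r hr).const_mul (j:ℝ))
  have h2 : HasDerivAt (fun r => f r ^ (m + 2) * (r * a' r - j * a r))
      (((m:ℝ) + 2) * f r ^ (m + 1) * f' r * (r * a' r - j * a r)
        + f r ^ (m + 2) * (1 * a' r + r * a'' r - j * a' r)) r :=
    (h.pow_deriv hr).mul h1
  have h3 : HasDerivAt (fun r => f r ^ (m + 2) * (r * a' r - j * a r) * a r)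
      ((((m:ℝ) + 2) * f r ^ (m + 1) * f' r * (r * a' r - j * a r)
        + f r ^ (m + 2) * (1 * a' r + r * a'' r - j * a' r)) * a r
        + f r ^ (m + 2) * (r * a' r - j * a r) * a' r) r :=
    h2.mul (h.ha r hr)
  have h4 : HasDerivAt (fun r => f r ^ (m + 2) * (r * a' r - j * a r) * a r / r)
      ((((((m:ℝ) + 2) * f r ^ (m + 1) * f' r * (r * a' r - j * a r)
        + f r ^ (m + 2) * (1 * a' r + r * a'' r - j * a' r)) * a r
        + f r ^ (m + 2) * (r * a' r - j * a r) * a' r) * r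
        - f r ^ (m + 2) * (r * a' r - j * a r) * a r * 1) / r ^ 2) r :=
    h3.div (hasDerivAt_id r) hr.ne'
  have hfp := h.hfpos r hr
  have hode := h.hode r hr
  have e : a'' r = (j:ℝ) * (j + m + 1) * a r / (f r) ^ 2 - ((m:ℝ) + 2) * (f' r / f r) * a' r := by
    linarith
  show HasDerivAt (fun r => f r ^ (m + 2) * (r * a' r - j * a r) * a r / r) _ r
  refine h4.congr_deriv ?_
  rw [e]
  field_simp
  ring

theorem Mode.psi_deriv_nonneg (h : Mode m j f f' a a' a'' B) {r : ℝ} (hr : 0 < r) :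
    0 ≤ f r ^ (m + 2) * (a' r - j * a r / r) ^ 2 + f r ^ m * a r ^ 2 *
      ((j:ℝ) * (j + m + 1) - j * (j - 1) * (f r / r) ^ 2 - (m + 2) * j * (f r / r) * f' r) := by
  have hfp := h.hfpos r hr
  have hq : f r / r ≤ 1 := (div_le_one hr).mpr (h.hfle r hr)
  have hq0 : 0 < f r / r := div_pos hfp hr
  have hf' : f' r ≤ f r / r := by
    rw [le_div_iff₀ hr]
    linarith [h.hf'le r hr]
  have hjj : (0:ℝ) ≤ (j:ℝ) * (j - 1) := by
    rcases Nat.eq_zero_or_pos j with h0 | h0
    · rw [h0]; simp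
    · have : (1:ℝ) ≤ j := by exact_mod_cast h0
      exact mul_nonneg (by linarith) (by linarith)
  have hj0 : (0:ℝ) ≤ j := Nat.cast_nonneg j
  have hm0 : (0:ℝ) ≤ m := Nat.cast_nonneg m
  have h1 : (j:ℝ) * (j - 1) * (f r / r) ^ 2 ≤ j * (j - 1) := by
    have : (f r / r) ^ 2 ≤ 1 := pow_le_one₀ hq0.le hq
    nlinarith
  have h2 : (f r / r) * f' r ≤ 1 := by
    have : (f r / r) * f' r ≤ (f r / r) * (f r / r) := mul_le_mul_of_nonneg_left hf' hq0.le
    nlinarith
  have h3 : ((m:ℝ) + 2) * j * (f r / r) * f' r ≤ (m + 2) * j := by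
    have : ((m:ℝ) + 2) * j * ((f r / r) * f' r) ≤ (m + 2) * j * 1 :=
      mul_le_mul_of_nonneg_left h2 (by positivity)
    linarith
  have h4 : 0 ≤ (j:ℝ) * (j + m + 1) - j * (j - 1) * (f r / r) ^ 2
      - (m + 2) * j * (f r / r) * f' r := by
    nlinarith
  have h5 : 0 ≤ f r ^ (m + 2) * (a' r - j * a r / r) ^ 2 :=
    mul_nonneg (pow_nonneg hfp.le _) (sq_nonneg _)
  have h6 : 0 ≤ f r ^ m * a r ^ 2 := mul_nonneg (pow_nonneg hfp.le _) (sq_nonneg _)
  exact add_nonneg h5 (mul_nonneg h6 h4)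

theorem Mode.psi_mono (h : Mode m j f f' a a' a'' B) : MonotoneOn (Psi m j f a a') (Ioi 0) := by
  apply monotoneOn_of_deriv_nonneg (convex_Ioi 0)
  · intro s hs
    exact (h.psi_deriv hs).continuousAt.continuousWithinAt
  · intro s hs
    rw [interior_Ioi] at hs
    exact (h.psi_deriv hs).differentiableAt.differentiableWithinAt
  · intro s hs
    rw [interior_Ioi] at hs
    rw [(h.psi_deriv hs).deriv]
    exact h.psi_deriv_nonneg hs

theorem Mode.psi_nonneg (h : Mode m j f f' a a' a'' B) {r : ℝ} (hr : 0 < r) :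
    0 ≤ Psi m j f a a' r := by
  have hB := h.B_nonneg
  set K : ℝ := ((j:ℝ) * (j + m + 1) + j) * B ^ 2 with hK
  have hK0 : 0 ≤ K := by positivity
  -- Psi s ≥ -K s for small s
  have hsmall : ∀ s, 0 < s → s ≤ 1 → -(K * s) ≤ Psi m j f a a' s := by
    intro s hs hs1
    have hfs := h.hfpos s hs
    have h1 := h.flux_abs_le hs hs1
    have h2 := h.hbdd s hs hs1
    have e : Psi m j f a a' s = f s ^ (m + 2) * a' s * a s - j * (f s ^ (m + 2) / s) * a s ^ 2 := by
      unfold Psi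
      field_simp
    have h3 : |f s ^ (m + 2) * a' s * a s| ≤ (j:ℝ) * (j + m + 1) * B * s * B := by
      rw [abs_mul]
      exact mul_le_mul h1 h2 (abs_nonneg _) (by positivity)
    have h4 : f s ^ (m + 2) / s ≤ s := by
      rw [div_le_iff₀ hs]
      calc f s ^ (m + 2) ≤ s ^ (m + 2) := pow_le_pow_left₀ hfs.le (h.hfle s hs) _
        _ ≤ s ^ 2 := pow_le_pow_of_le_one hs.le hs1 (by omega)
        _ = s * s := by ring
    have h5 : a s ^ 2 ≤ B ^ 2 := by
      rw [← sq_abs]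
      exact pow_le_pow_left₀ (abs_nonneg _) h2 2
    have h6 : 0 ≤ f s ^ (m + 2) / s := div_nonneg (pow_nonneg hfs.le _) hs.le
    have h7 : (j:ℝ) * (f s ^ (m + 2) / s) * a s ^ 2 ≤ j * s * B ^ 2 := by
      have hj0 : (0:ℝ) ≤ j := Nat.cast_nonneg j
      calc (j:ℝ) * (f s ^ (m + 2) / s) * a s ^ 2 ≤ j * s * a s ^ 2 := by
            apply mul_le_mul_of_nonneg_right _ (sq_nonneg _)
            exact mul_le_mul_of_nonneg_left h4 hj0
        _ ≤ j * s * B ^ 2 := mul_le_mul_of_nonneg_left h5 (by positivity)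
    rw [e, hK]
    have := (abs_le.mp h3).1
    nlinarith
  by_contra hcon
  push Not at hcon
  -- choose s small
  set s : ℝ := min (min r 1) (-(Psi m j f a a' r) / (2 * (K + 1))) with hs
  have hspos : 0 < s := by
    rw [hs]
    apply lt_min (lt_min hr one_pos)
    apply div_pos (by linarith) (by positivity)
  have hsr : s ≤ r := (min_le_left _ _).trans (min_le_left _ _)
  have hs1 : s ≤ 1 := (min_le_left _ _).trans (min_le_right _ _)
  have hs2 : s ≤ -(Psi m j f a a' r) / (2 * (K + 1)) := min_le_right _ _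
  have h1 := hsmall s hspos hs1
  have h2 := h.psi_mono (mem_Ioi.mpr hspos) (mem_Ioi.mpr hr) hsr
  rw [le_div_iff₀ (by positivity)] at hs2
  nlinarith

/-- **Monotonicity**: `a(r)^2 / r^(2j)` is nondecreasing on `(0, ∞)`. -/
theorem Mode.ratio_mono (h : Mode m j f f' a a' a'' B) :
    MonotoneOn (fun r => a r ^ 2 / (r ^ j) ^ 2) (Ioi 0) := by
  have hd : ∀ r, 0 < r → HasDerivAt (fun r => a r ^ 2 / (r ^ j) ^ 2)
      (2 * Psi m j f a a' r / ((r ^ j) ^ 2 * f r ^ (m + 2))) r := by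
    intro r hr
    have hp : HasDerivAt (fun r : ℝ => r ^ j) (j * r ^ (j - 1)) r := hasDerivAt_pow j r
    have hp2 : HasDerivAt (fun r : ℝ => (r ^ j) ^ 2) (2 * r ^ j * (j * r ^ (j - 1))) r := by
      have h0 : HasDerivAt (fun r : ℝ => (r ^ j) ^ 2)
          (((2 : ℕ) : ℝ) * (r ^ j) ^ (2 - 1) * (j * r ^ (j - 1))) r := hp.pow 2
      refine h0.congr_deriv ?_
      norm_num
    have ha2 : HasDerivAt (fun r : ℝ => a r ^ 2) (2 * a r * a' r) r := by
      have h0 : HasDerivAt (fun r : ℝ => a r ^ 2)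
          (((2 : ℕ) : ℝ) * a r ^ (2 - 1) * a' r) r := (h.ha r hr).pow 2
      refine h0.congr_deriv ?_
      norm_num
    have hpos : (r ^ j) ^ 2 ≠ 0 := by positivity
    have h1 : HasDerivAt (fun r => a r ^ 2 / (r ^ j) ^ 2)
        ((2 * a r * a' r * (r ^ j) ^ 2 - a r ^ 2 * (2 * r ^ j * (j * r ^ (j - 1))))
          / ((r ^ j) ^ 2) ^ 2) r := ha2.div hp2 hpos
    have hfp := h.hfpos r hr
    have key : (j:ℝ) * r ^ (j - 1) * r = j * r ^ j := by
      rcases Nat.eq_zero_or_pos j with h0 | h0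
      · rw [h0]; simp
      · obtain ⟨k, rfl⟩ : ∃ k, j = k + 1 := ⟨j - 1, by omega⟩
        simp only [Nat.add_sub_cancel]
        ring
    have e2 : (j:ℝ) * r ^ (j - 1) = j * r ^ j / r := by
      rw [eq_div_iff hr.ne']
      exact key
    refine h1.congr_deriv ?_
    unfold Psi
    rw [e2]
    have hrj : r ^ j ≠ 0 := by positivity
    field_simp
  apply monotoneOn_of_deriv_nonneg (convex_Ioi 0)
  · intro s hs
    exact (hd s hs).continuousAt.continuousWithinAt
  · intro s hs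
    rw [interior_Ioi] at hs
    exact (hd s hs).differentiableAt.differentiableWithinAt
  · intro s hs
    rw [interior_Ioi] at hs
    rw [(hd s hs).deriv]
    have hfp := h.hfpos s hs
    have := h.psi_nonneg hs
    positivity

end core

end Vale.Agent.H60.Radial
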