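import Vale.Agent.H60.Radial.Growth

/-!
# Radial modes of polynomial growth on rotationally symmetric manifolds with `Ric ≥ 0`
-/

namespace Vale.Agent.H60.Radial

open Set Filter

/-- consequences of concavity: `f r ≤ r` and `r f'(r) ≤ f(r)` -/
theorem concave_facts {f : ℝ → ℝ} (hf : ContDiff ℝ 2 f) (hf0 : f 0 = 0) (hf1 : deriv f 0 = 1)
    (hfconc : ∀ r, 0 ≤ r → deriv (deriv f) r ≤ 0) :
    (∀ r, 0 < r → f r ≤ r) ∧ (∀ r, 0 < r → r * deriv f r ≤ f r) := by
  have hfd : Differentiable ℝ f := hf.differentiable (by norm_num)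
  have h2 : ContDiff ℝ (1 + 1) f := by rw [one_add_one_eq_two]; exact hf
  have hf'c : ContDiff ℝ 1 (deriv f) := (contDiff_succ_iff_deriv.mp h2).2.2
  have hf'd : Differentiable ℝ (deriv f) := hf'c.differentiable (by norm_num)
  have hanti : AntitoneOn (deriv f) (Ici 0) := by
    apply antitoneOn_of_deriv_nonpos (convex_Ici 0) hf'd.continuous.continuousOn
      hf'd.differentiableOn
    intro x hx
    rw [interior_Ici] at hx
    exact hfconc x hx.le
  have hf'le1 : ∀ r, 0 ≤ r → deriv f r ≤ 1 := by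
    intro r hr
    have := hanti (mem_Ici.mpr le_rfl) (mem_Ici.mpr hr) hr
    rw [hf1] at this
    exact this
  have hmono1 : MonotoneOn (fun r => r - f r) (Ici 0) := by
    have hd : ∀ r, HasDerivAt (fun r => r - f r) (1 - deriv f r) r := fun r =>
      (hasDerivAt_id r).sub (hfd r).hasDerivAt
    apply monotoneOn_of_deriv_nonneg (convex_Ici 0)
    · exact fun r _ => (hd r).continuousAt.continuousWithinAt
    · exact fun r _ => (hd r).differentiableAt.differentiableWithinAt
    · intro r hr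
      rw [interior_Ici] at hr
      rw [(hd r).deriv]
      linarith [hf'le1 r hr.le]
  have hmono2 : MonotoneOn (fun r => f r - r * deriv f r) (Ici 0) := by
    have hd : ∀ r, HasDerivAt (fun r => f r - r * deriv f r)
        (deriv f r - (1 * deriv f r + r * deriv (deriv f) r)) r := fun r =>
      (hfd r).hasDerivAt.sub ((hasDerivAt_id r).mul (hf'd r).hasDerivAt)
    apply monotoneOn_of_deriv_nonneg (convex_Ici 0)
    · exact fun r _ => (hd r).continuousAt.continuousWithinAt
    · exact fun r _ => (hd r).differentiableAt.differentiableWithinAt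
    · intro r hr
      rw [interior_Ici] at hr
      rw [(hd r).deriv]
      have h3 := hfconc r hr.le
      have hr0 : 0 < r := hr
      have h4 : r * deriv (deriv f) r ≤ 0 := mul_nonpos_of_nonneg_of_nonpos hr0.le h3
      linarith
  constructor
  · intro r hr
    have := hmono1 (mem_Ici.mpr le_rfl) (mem_Ici.mpr hr.le) hr.le
    simp only [hf0, sub_zero] at this
    linarith
  · intro r hr
    have := hmono2 (mem_Ici.mpr le_rfl) (mem_Ici.mpr hr.le) hr.le
    simp only [hf0, zero_mul, sub_zero] at this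
    linarith

/-- **Growth of radial modes.**  On the rotationally symmetric manifold
`(ℝ^n, dr^2 + f(r)^2 g_S)`, `n ≥ 3`, with `f'' ≤ 0`, a radial mode of degree `j` that is bounded
near the pole and grows at most like `r^d` at infinity vanishes identically unless `j ≤ d`. -/
theorem mode_growth (n j : ℕ) (hn : 3 ≤ n) (f a : ℝ → ℝ) (d B C : ℝ)
    (hf : ContDiff ℝ 2 f) (hf0 : f 0 = 0) (hf1 : deriv f 0 = 1)
    (hfpos : ∀ r, 0 < r → 0 < f r) (hfconc : ∀ r, 0 ≤ r → deriv (deriv f) r ≤ 0)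
    (ha : ContDiffOn ℝ 2 a (Ioi 0))
    (hode : ∀ r, 0 < r → deriv (deriv a) r + ((n:ℝ) - 1) * (deriv f r / f r) * deriv a r
      - (j:ℝ) * (j + n - 2) * a r / (f r) ^ 2 = 0)
    (hbdd : ∀ r, 0 < r → r ≤ 1 → |a r| ≤ B)
    (hgrow : ∀ r, 1 ≤ r → |a r| ≤ C * r ^ d) :
    (j : ℝ) ≤ d ∨ ∀ r, 0 < r → a r = 0 := by
  obtain ⟨m, rfl⟩ : ∃ m, n = m + 3 := ⟨n - 3, by omega⟩
  obtain ⟨hfle, hf'le⟩ := concave_facts hf hf0 hf1 hfconc
  have hfd : Differentiable ℝ f := hf.differentiable (by norm_num)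
  have ha2 : ContDiffOn ℝ (1 + 1) a (Ioi 0) := by rw [one_add_one_eq_two]; exact ha
  obtain ⟨had, -, ha'c⟩ := (contDiffOn_succ_iff_deriv_of_isOpen isOpen_Ioi).mp ha2
  have ha'd : DifferentiableOn ℝ (deriv a) (Ioi 0) := ha'c.differentiableOn (by norm_num)
  have hmode : Mode m j f (deriv f) a (deriv a) (deriv (deriv a)) B :=
    { hf := fun r _ => (hfd r).hasDerivAt
      hfpos := hfpos
      hfle := hfle
      hf'le := hf'le
      ha := fun r hr => (had.differentiableAt (isOpen_Ioi.mem_nhds hr)).hasDerivAt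
      ha' := fun r hr => (ha'd.differentiableAt (isOpen_Ioi.mem_nhds hr)).hasDerivAt
      hode := fun r hr => by
        have := hode r hr
        push_cast at this
        linear_combination this
      hbdd := hbdd }
  by_cases hall : ∀ r, 0 < r → a r = 0
  · right
    exact hall
  left
  push Not at hall
  obtain ⟨r₁, hr₁, har₁⟩ := hall
  by_contra hjd
  push Not at hjd
  set c : ℝ := a r₁ ^ 2 / (r₁ ^ j) ^ 2 with hc
  have hcpos : 0 < c := by positivity
  have key : ∀ r, max r₁ 1 ≤ r → c * (r ^ j) ^ 2 ≤ C ^ 2 * (r ^ d) ^ 2 := by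
    intro r hr
    have hr1 : 1 ≤ r := (le_max_right _ _).trans hr
    have hrr : r₁ ≤ r := (le_max_left _ _).trans hr
    have hr0 : 0 < r := lt_of_lt_of_le one_pos hr1
    have h1 : a r₁ ^ 2 / (r₁ ^ j) ^ 2 ≤ a r ^ 2 / (r ^ j) ^ 2 :=
      hmode.ratio_mono (mem_Ioi.mpr hr₁) (mem_Ioi.mpr hr0) hrr
    have h2 := hgrow r hr1
    have h3 : a r ^ 2 ≤ (C * r ^ d) ^ 2 := by
      rw [← sq_abs]
      exact pow_le_pow_left₀ (abs_nonneg _) h2 2
    have hpos : 0 < (r ^ j) ^ 2 := by positivity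
    rw [← hc, le_div_iff₀ hpos] at h1
    calc c * (r ^ j) ^ 2 ≤ a r ^ 2 := h1
      _ ≤ (C * r ^ d) ^ 2 := h3
      _ = C ^ 2 * (r ^ d) ^ 2 := by ring
  set K : ℝ := C ^ 2 / c with hK
  have hK0 : 0 ≤ K := by positivity
  have hexp : 0 < (j:ℝ) - d := by linarith
  have hev : ∀ᶠ r : ℝ in atTop, K + 1 < r ^ ((j:ℝ) - d) :=
    (tendsto_rpow_atTop hexp).eventually_gt_atTop (K + 1)
  obtain ⟨r, hr, hrK⟩ := ((eventually_ge_atTop (max r₁ 1)).and hev).exists
  have hr1 : 1 ≤ r := (le_max_right _ _).trans hr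
  have hr0 : 0 < r := lt_of_lt_of_le one_pos hr1
  have h4 := key r hr
  have hsplit : r ^ ((j:ℝ) - d) = r ^ j / r ^ d := by
    rw [Real.rpow_sub hr0, Real.rpow_natCast]
  have hrd : 0 < r ^ d := Real.rpow_pos_of_pos hr0 d
  have h5 : (r ^ ((j:ℝ) - d)) ^ 2 ≤ K := by
    rw [hsplit, div_pow, div_le_iff₀ (by positivity), hK, div_mul_eq_mul_div,
      le_div_iff₀ hcpos]
    linarith
  nlinarith

end Vale.Agent.H60.Radial
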